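import Vale.Agent.P122.Stm

open MeasureTheory Set FourierTransform
open scoped ENNReal

namespace Vale.Agent.P122

namespace Cs

theorem one (p : ℝ) (hp : 1 < p) (v : ℝ → ℝ≥0∞) (hv : Measurable v) :
    (∫⁻ x, v x ^ p) ^ 2 ≤ (∫⁻ x, v x ^ 2) * ∫⁻ x, v x ^ (2 * p - 2) := by
  have h := ENNReal.lintegral_mul_le_Lp_mul_Lq (volume : Measure ℝ) Real.HolderConjugate.two_two
    (f := v) (g := fun x => v x ^ (p - 1)) hv.aemeasurable (hv.pow_const _).aemeasurable
  have e1 : ∀ x, (v * fun x => v x ^ (p - 1)) x = v x ^ p := by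
    intro x
    have := ENNReal.rpow_add_of_nonneg (x := v x) 1 (p - 1) zero_le_one (by linarith)
    rw [ENNReal.rpow_one, add_sub_cancel] at this
    simp only [Pi.mul_apply]
    exact this.symm
  have e2 : ∀ x, (v x ^ (p - 1)) ^ (2 : ℝ) = v x ^ (2 * p - 2) := by
    intro x
    rw [← ENNReal.rpow_mul]
    congr 1
    ring
  have e3 : ∀ y : ℝ≥0∞, (y ^ (1 / 2 : ℝ)) ^ 2 = y := by
    intro y
    rw [← ENNReal.rpow_natCast, ← ENNReal.rpow_mul]
    norm_num
  simp only [e1, e2, ENNReal.rpow_two] at h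
  calc (∫⁻ x, v x ^ p) ^ 2
      ≤ ((∫⁻ x, v x ^ 2) ^ (1 / 2 : ℝ) * (∫⁻ x, v x ^ (2 * p - 2)) ^ (1 / 2 : ℝ)) ^ 2 := by
        gcongr
    _ = _ := by rw [mul_pow, e3, e3]

end Cs

theorem r_cs : R_cs := by
  intro p u m hp hu hm
  have h2 : Measurable (fun z : ℝ × ℝ => u z.1 z.2 ^ (2 * p - 2)) := hu.pow_const _
  rw [Measure.volume_eq_prod, lintegral_prod_symm _ h2.aemeasurable,
    ← lintegral_const_mul _ h2.lintegral_prod_left']
  unfold mix
  refine lintegral_mono fun t => ?_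
  have hv : Measurable fun x => u x t := hu.comp measurable_prodMk_right
  exact (Cs.one p hp _ hv).trans (by gcongr; exact hm t)

end Vale.Agent.P122
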