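import Vale.Agent.P122.Stm

namespace Vale.Agent.P122

open MeasureTheory FourierTransform Set
open scoped ENNReal
open Vale.Agent.P117 (N A S_bes S_auto S_hint)

theorem bas_norm (θ : ℝ) : ‖ex θ‖ = 1 := by
  have e : 2 * (Real.pi : ℂ) * Complex.I * (θ : ℂ) = ((2 * Real.pi * θ : ℝ) : ℂ) * Complex.I := by
    push_cast
    ring
  rw [ex, e, Complex.norm_exp_ofReal_mul_I]

theorem bas_md (φ : ℝ → ℝ) (t : ℝ) (g : ℝ → ℂ) (y : ℝ) : ‖md φ t g y‖ = ‖g y‖ := by
  rw [md, norm_mul, bas_norm, one_mul]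

theorem bas_V (φ : ℝ → ℝ) (t : ℝ) (g : ℝ → ℂ) (x : ℝ) : V φ t g x = 𝓕 (md φ t g) (-x) := by
  rw [Real.fourier_real_eq_integral_exp_smul, V]
  refine integral_congr_ae (ae_of_all _ fun y => ?_)
  simp only [md, ex, smul_eq_mul]
  rw [← mul_assoc, ← Complex.exp_add]
  congr 2
  push_cast
  ring

theorem t_bas : T_bas := by
  intro φ a b t g hφ hg
  obtain ⟨h1, h2, h3⟩ := hg
  have hb : ∀ y, ‖g y‖ ≤ (Icc a b).indicator (fun _ => (1 : ℝ)) y := fun y => by
    by_cases hy : y ∈ Icc a b
    · rw [indicator_of_mem hy]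
      exact h2 y
    · rw [indicator_of_notMem hy, h3 y hy, norm_zero]
  have hi : Integrable ((Icc a b).indicator fun _ => (1 : ℝ)) :=
    (integrable_indicator_iff measurableSet_Icc).2
      (integrableOn_const (by rw [Real.volume_Icc]; exact ENNReal.ofReal_ne_top))
  have hm : Measurable (md φ t g) := by
    refine Measurable.mul (Continuous.measurable ?_) h1
    unfold ex
    fun_prop
  refine ⟨hi.mono' h1.aestronglyMeasurable (ae_of_all _ hb),
    hi.mono' hm.aestronglyMeasurable (ae_of_all _ fun y => (bas_md φ t g y).trans_le (hb y)),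
    ?_, ?_, fun q => ?_⟩
  · refine lintegral_congr fun y => ?_
    rw [← ofReal_norm, ← ofReal_norm, bas_md]
  · have k : N 2 g ≤ ∫⁻ y, (Icc a b).indicator (fun _ => (1 : ℝ≥0∞)) y := by
      refine lintegral_mono fun y => ?_
      by_cases hy : y ∈ Icc a b
      · rw [indicator_of_mem hy]
        refine ENNReal.rpow_le_one ?_ (by norm_num)
        rw [← ofReal_norm]
        exact ENNReal.ofReal_le_one.2 (h2 y)
      · rw [indicator_of_notMem hy, h3 y hy]
        simp
    rw [lintegral_indicator measurableSet_Icc, setLIntegral_one, Real.volume_Icc] at k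
    exact ne_top_of_le_ne_top ENNReal.ofReal_ne_top k
  · simp only [N, bas_V]
    exact lintegral_neg_eq_self fun x => ‖𝓕 (md φ t g) x‖ₑ ^ q

end Vale.Agent.P122
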