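import Vale.Agent.P122.Stm

/-! Chebyshev bound for the level functions. -/

namespace Vale.Agent.P122

open MeasureTheory FourierTransform Set
open scoped ENNReal
open Vale.Agent.P117 (N A S_bes S_auto S_hint)

theorem che_le (g : ℝ → ℂ) (l y : ℝ) : ‖lv g l y‖ ≤ 1 := by
  unfold lv
  split_ifs
  · rw [norm_div, Complex.norm_real, norm_norm]
    exact div_self_le_one _
  · simp

theorem che_num {p l r : ℝ} (hp : 1 ≤ p) (hl : 0 < l) (h : l < r) :
    1 ≤ 2 ^ p * (1 + l) ^ (-p) * (1 + r ^ p) := by
  have hr : 0 < r := hl.trans h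
  have h1 : (1 + l) ^ p ≤ 2 ^ p * (1 + r ^ p) := by
    rcases le_total r 1 with h2 | h2
    · refine (Real.rpow_le_rpow (by linarith) (by linarith : 1 + l ≤ 2) (by linarith)).trans ?_
      exact le_mul_of_one_le_right (by positivity) (le_add_of_nonneg_right (by positivity))
    · refine (Real.rpow_le_rpow (by linarith) (by linarith : 1 + l ≤ 2 * r) (by linarith)).trans ?_
      rw [Real.mul_rpow (by norm_num) hr.le]
      exact mul_le_mul_of_nonneg_left (by linarith) (by positivity)
  have h3 : 0 < (1 + l) ^ p := by positivity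
  rw [Real.rpow_neg (by linarith), mul_right_comm, ← div_eq_mul_inv, one_le_div h3]
  exact h1

theorem t_che : T_che := by
  intro p a b hp
  refine ⟨2 ^ p * (|b - a| + 1), by positivity, fun g l hg h1 hl => ⟨?_, che_le g l, ?_⟩⟩
  · exact Measurable.ite (measurableSet_lt measurable_const hg.norm)
      (hg.div (Complex.measurable_ofReal.comp hg.norm)) measurable_const
  · have pt : ∀ y, ‖lv g l y‖ₑ ^ (2 : ℝ) ≤
        ENNReal.ofReal (2 ^ p * (1 + l) ^ (-p)) * (1 + ‖g y‖ₑ ^ p) := by
      intro y
      by_cases h : l < ‖g y‖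
      · have e1 : ‖lv g l y‖ₑ ^ (2 : ℝ) ≤ 1 := ENNReal.rpow_le_one (by
          rw [← ofReal_norm]
          exact ENNReal.ofReal_le_one.2 (che_le g l y)) (by norm_num)
        refine e1.trans ?_
        rw [← ofReal_norm, ENNReal.ofReal_rpow_of_nonneg (norm_nonneg _) (by linarith),
          ← ENNReal.ofReal_one, ← ENNReal.ofReal_add zero_le_one (by positivity),
          ← ENNReal.ofReal_mul (by positivity)]
        exact ENNReal.ofReal_le_ofReal (che_num hp hl h)
      · rw [lv, if_neg h]
        simp
    unfold NI at h1 ⊢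
    refine (lintegral_mono pt).trans ?_
    rw [lintegral_const_mul' _ _ ENNReal.ofReal_ne_top, lintegral_add_left measurable_const,
      setLIntegral_one, Real.volume_Icc, mul_right_comm,
      ENNReal.ofReal_mul (q := |b - a| + 1) (by positivity),
      ENNReal.ofReal_add (abs_nonneg _) zero_le_one, ENNReal.ofReal_one]
    gcongr
    exact le_abs_self _

end Vale.Agent.P122
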