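import Vale.Agent.P122.Stm

/-! Uniform convexity on a compact interval. -/

namespace Vale.Agent.P122

open MeasureTheory FourierTransform Set
open scoped ENNReal
open Vale.Agent.P117 (N A S_bes S_auto S_hint)

theorem t_cv : T_cv := by
  intro φ a b ⟨h, h0⟩
  have h1 : ContDiff ℝ 1 (deriv φ) := ContDiff.deriv' (n := 1) h
  have h2 : Continuous (deriv (deriv φ)) := h1.continuous_deriv le_rfl
  have d : ∀ y, HasDerivAt φ (deriv φ y) y := fun y => (h.differentiable (by simp) y).hasDerivAt
  rcases (Icc a b).eq_empty_or_nonempty with e | e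
  · exact ⟨1, one_pos, d, h1.continuous, fun x hx => by simp [e] at hx⟩
  obtain ⟨c, hc, m⟩ := isCompact_Icc.exists_isMinOn e h2.abs.continuousOn
  have k : ∀ x ∈ Icc a b, ∀ y ∈ Icc a b, x < y →
      |deriv (deriv φ) c| * |y - x| ≤ |deriv φ y - deriv φ x| := fun x hx y hy l => by
    obtain ⟨z, hz, ez⟩ := exists_deriv_eq_slope (deriv φ) l h1.continuous.continuousOn
      (h1.differentiable one_ne_zero).differentiableOn
    have t : |deriv (deriv φ) c| ≤ |deriv (deriv φ) z| :=
      m (⟨hx.1.trans hz.1.le, hz.2.le.trans hy.2⟩ : z ∈ Icc a b)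
    rwa [ez, abs_div, le_div_iff₀ (abs_pos.2 (sub_pos.2 l).ne')] at t
  refine ⟨_, abs_pos.2 (h0 c hc), d, h1.continuous, fun x hx y hy => ?_⟩
  rcases lt_trichotomy x y with l | rfl | l
  · exact k x hx y hy l
  · simp
  · rw [abs_sub_comm y, abs_sub_comm (deriv φ y)]
    exact k y hy x hx l

end Vale.Agent.P122
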