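import Vale.Agent.P122.Stm

/-! The density as a Gaussian average of products. -/

namespace Vale.Agent.P122

open MeasureTheory FourierTransform Set
open scoped ENNReal
open Vale.Agent.P117 (N A S_bes S_auto S_hint)

theorem t_den : T_den := by
  refine ⟨?_, fun u v hu hv => ?_⟩
  · have := (integrable_exp_neg_mul_sq one_pos).const_mul (2 / √Real.pi)
    refine this.congr (Filter.Eventually.of_forall fun s => ?_)
    simp [gw]
  have hz : 0 < 1 + u + v := by linarith
  have hi := integrable_exp_neg_mul_sq hz
  have e : (fun s => gw s * (al u s * be v s)) = fun s =>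
      2 / √Real.pi * (1 + u) * (Ioi (0 : ℝ)).indicator (fun s => Real.exp (-(1 + u + v) * s ^ 2)) s +
      2 / √Real.pi * v * (Iic (0 : ℝ)).indicator (fun s => Real.exp (-(1 + u + v) * s ^ 2)) s := by
    funext s
    have h3 : Real.exp (-(1 + u + v) * s ^ 2) =
        Real.exp (-s ^ 2) * Real.exp (-(s ^ 2 * u)) * Real.exp (-(s ^ 2 * v)) := by
      rw [← Real.exp_add, ← Real.exp_add]
      congr 1
      ring
    by_cases hs : 0 < s
    · rw [indicator_of_mem (show s ∈ Ioi (0 : ℝ) from hs),
        indicator_of_notMem (show s ∉ Iic (0 : ℝ) from not_le.2 hs), h3]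
      simp only [gw, al, be, if_pos hs]
      ring
    · rw [indicator_of_notMem (show s ∉ Ioi (0 : ℝ) from hs),
        indicator_of_mem (show s ∈ Iic (0 : ℝ) from not_lt.1 hs), h3]
      simp only [gw, al, be, if_neg hs]
      ring
  have h1 : ∫ s in Ioi (0 : ℝ), Real.exp (-(1 + u + v) * s ^ 2) = √(Real.pi / (1 + u + v)) / 2 :=
    integral_gaussian_Ioi _
  have h2 : ∫ s in Iic (0 : ℝ), Real.exp (-(1 + u + v) * s ^ 2) =
      √(Real.pi / (1 + u + v)) / 2 := by
    have h4 := integral_add_compl (μ := volume) (s := Ioi (0 : ℝ)) measurableSet_Ioi hi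
    rw [compl_Ioi, h1, integral_gaussian] at h4
    linarith
  rw [e, integral_add ((hi.indicator measurableSet_Ioi).const_mul _)
    ((hi.indicator measurableSet_Iic).const_mul _), integral_const_mul, integral_const_mul,
    integral_indicator measurableSet_Ioi, integral_indicator measurableSet_Iic, h1, h2,
    Real.sqrt_div Real.pi_pos.le]
  have p0 : 0 < √Real.pi := Real.sqrt_pos.2 Real.pi_pos
  have z0 : 0 < √(1 + u + v) := Real.sqrt_pos.2 hz
  have z1 := Real.mul_self_sqrt hz.le
  field_simp
  nlinarith

end Vale.Agent.P122
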