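import Vale.Agent.P122.Stm

/-! The diagonal estimate for tensor products. -/

namespace Vale.Agent.P122

open MeasureTheory FourierTransform Set
open scoped ENNReal
open Vale.Agent.P117 (N A S_bes S_auto S_hint)

theorem dia_int {g : ℝ → ℂ} (a b : ℝ) (hg : Measurable g) (h1 : ∀ y, ‖g y‖ ≤ 1) :
    IntegrableOn g (Icc a b) :=
  Measure.integrableOn_of_bounded (M := 1) measure_Icc_lt_top.ne hg.aestronglyMeasurable
    (Filter.Eventually.of_forall h1)

theorem t_dia (h_res : T_res) (h_lay : T_lay) (h_k1 : T_ker1) (h_k2 : T_ker2) (h_fin : T_fin) :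
    T_dia := by
  intro p κ κ' a b c d φ ψ h3 h4 hφ hψ
  have cφ : Continuous φ := continuous_iff_continuousAt.2 fun y => (hφ.2.1 y).continuousAt
  have cψ : Continuous ψ := continuous_iff_continuousAt.2 fun y => (hψ.2.1 y).continuousAt
  obtain ⟨C0, h0, r0⟩ := h_res p κ κ' a b c d φ ψ h3 h4 hφ hψ
  obtain ⟨C1, h1, l1⟩ := h_lay p a b h3
  obtain ⟨C2, h2, l2⟩ := h_lay p c d h3
  refine ⟨C2 * C1 * C0, ENNReal.mul_ne_top (ENNReal.mul_ne_top h2 h1) h0,
    fun g h mg mh fg fh => ?_⟩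
  have ig := h_fin.2 p a b g (by linarith) mg fg
  have ih := h_fin.2 p c d h (by linarith) mh fh
  obtain ⟨K2, k2, e2⟩ := h_k2 φ ψ a b c d cφ cψ hφ.2.2.1 hψ.2.2.1 g mg ig
  have s2 : Res p c d K2 (C1 * C0 * NI p a b g) := fun h' mh' bh' => by
    obtain ⟨K1, k1, e1⟩ := h_k1 φ ψ a b c d cφ cψ hφ.2.2.1 hψ.2.2.1 h' mh' (dia_int c d mh' bh')
    have s1 : Res p a b K1 (C0 * NI 2 c d h' ^ ((p - 1) / 2)) := fun g' mg' bg' => by
      simp only [← e1 g' mg' (dia_int a b mg' bg')]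
      exact (r0 g' h' mg' bg' mh' bh').trans_eq (mul_right_comm _ _ _)
    have := l1 K1 _ k1 s1 g mg fg
    simp only [← e1 g mg ig, e2 h' mh' (dia_int c d mh' bh')] at this
    exact this.trans_eq (by ring)
  simp only [e2 h mh ih]
  exact (l2 K2 _ k2 s2 h mh fh).trans_eq (by ring)

end Vale.Agent.P122
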