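import Vale.Agent.P122.Stm

/-! The weighted pieces are measurable and bounded. -/

namespace Vale.Agent.P122

open MeasureTheory FourierTransform Set
open scoped ENNReal
open Vale.Agent.P117 (N A S_bes S_auto S_hint)

theorem G_exp {u : ℝ} (hu : 0 ≤ u) (s : ℝ) : Real.exp (-(s ^ 2 * u)) ≤ 1 :=
  Real.exp_le_one_iff.2 (neg_nonpos.2 (by positivity))

theorem G_al {u : ℝ} (hu : 0 ≤ u) (s : ℝ) : 0 ≤ al u s ∧ al u s ≤ 1 + u := by
  have h := G_exp hu s
  have h0 := Real.exp_pos (-(s ^ 2 * u))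
  unfold al
  split_ifs
  · exact ⟨by positivity, by nlinarith⟩
  · exact ⟨h0.le, by linarith⟩

theorem G_be {u : ℝ} (hu : 0 ≤ u) (s : ℝ) : 0 ≤ be u s ∧ be u s ≤ 1 + u := by
  have h := G_exp hu s
  have h0 := Real.exp_pos (-(s ^ 2 * u))
  unfold be
  split_ifs
  · exact ⟨h0.le, by linarith⟩
  · exact ⟨by positivity, by nlinarith⟩

theorem G_meas (a b : ℝ) (g : ℝ → ℂ) (w : ℝ → ℝ → ℝ) (hg : Measurable g)
    (hw : Measurable fun z : ℝ × ℝ => w z.1 z.2) :
    Measurable fun z : ℝ × ℝ => (Icc a b).indicator (fun y => g y * ((w z.1 y : ℝ) : ℂ)) z.2 := by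
  have e : (fun z : ℝ × ℝ => (Icc a b).indicator (fun y => g y * ((w z.1 y : ℝ) : ℂ)) z.2) =
      (Prod.snd ⁻¹' Icc a b).indicator fun z : ℝ × ℝ => g z.2 * ((w z.1 z.2 : ℝ) : ℂ) := by
    funext z
    by_cases h : z.2 ∈ Icc a b
    · rw [indicator_of_mem h, indicator_of_mem (show z ∈ Prod.snd ⁻¹' Icc a b from h)]
    · rw [indicator_of_notMem h, indicator_of_notMem (show z ∉ Prod.snd ⁻¹' Icc a b from h)]
  rw [e]
  exact ((hg.comp measurable_snd).mul (Complex.measurable_ofReal.comp hw)).indicator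
    (measurable_snd measurableSet_Icc)

theorem G_bd (a b : ℝ) (g : ℝ → ℂ) (w : ℝ → ℝ) (hg1 : ∀ y, ‖g y‖ ≤ 1)
    (hm : Measurable ((Icc a b).indicator fun y => g y * ((w y : ℝ) : ℂ)))
    (hw : ∀ y ∈ Icc a b, 0 ≤ w y ∧ w y ≤ 1) :
    Bd a b ((Icc a b).indicator fun y => g y * ((w y : ℝ) : ℂ)) ∧
      N 2 ((Icc a b).indicator fun y => g y * ((w y : ℝ) : ℂ)) ≤ NI 2 a b g := by
  have hn : ∀ y ∈ Icc a b, ‖g y * ((w y : ℝ) : ℂ)‖ ≤ ‖g y‖ := fun y hy => by
    rw [norm_mul, Complex.norm_real, Real.norm_of_nonneg (hw y hy).1]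
    exact mul_le_of_le_one_right (norm_nonneg _) (hw y hy).2
  refine ⟨⟨hm, fun y => ?_, fun y hy => indicator_of_notMem hy _⟩, ?_⟩
  · by_cases h : y ∈ Icc a b
    · rw [indicator_of_mem h]
      exact (hn y h).trans (hg1 y)
    · rw [indicator_of_notMem h, norm_zero]
      exact zero_le_one
  · unfold N NI
    rw [← lintegral_indicator measurableSet_Icc]
    refine lintegral_mono fun y => ?_
    by_cases h : y ∈ Icc a b
    · simp only [indicator_of_mem h]
      refine ENNReal.rpow_le_rpow ?_ (by norm_num)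
      rw [← ofReal_norm, ← ofReal_norm]
      exact ENNReal.ofReal_le_ofReal (hn y h)
    · simp only [indicator_of_notMem h]
      simp

theorem t_G : T_G := by
  intro φ a b B g hφ hB hb hg hg1
  have hd : Measurable (deriv φ) := hφ.measurable
  have B0 : 0 < B := one_pos.trans_le hB
  have m1 : Measurable fun z : ℝ × ℝ => al (deriv φ z.2 ^ 2) z.1 / B := by
    refine Measurable.div_const ?_ _
    unfold al
    exact Measurable.ite (measurableSet_lt measurable_const measurable_fst)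
      (by fun_prop) (by fun_prop)
  have m2 : Measurable fun z : ℝ × ℝ => be (deriv φ z.2 ^ 2) z.1 / B := by
    refine Measurable.div_const ?_ _
    unfold be
    exact Measurable.ite (measurableSet_lt measurable_const measurable_fst)
      (by fun_prop) (by fun_prop)
  have M1 : Measurable (fun z : ℝ × ℝ => G1 φ a b B g z.1 z.2) :=
    G_meas a b g (fun s y => al (deriv φ y ^ 2) s / B) hg m1
  have M2 : Measurable (fun z : ℝ × ℝ => G2 φ a b B g z.1 z.2) :=
    G_meas a b g (fun s y => be (deriv φ y ^ 2) s / B) hg m2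
  refine ⟨M1, M2, fun s => ?_⟩
  have k1 := G_bd a b g (fun y => al (deriv φ y ^ 2) s / B) hg1
    (M1.comp (measurable_prodMk_left (x := s))) fun y hy =>
      ⟨div_nonneg (G_al (sq_nonneg _) s).1 B0.le,
        (div_le_one B0).2 ((G_al (sq_nonneg _) s).2.trans (hb y hy))⟩
  have k2 := G_bd a b g (fun y => be (deriv φ y ^ 2) s / B) hg1
    (M2.comp (measurable_prodMk_left (x := s))) fun y hy =>
      ⟨div_nonneg (G_be (sq_nonneg _) s).1 B0.le,
        (div_le_one B0).2 ((G_be (sq_nonneg _) s).2.trans (hb y hy))⟩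
  exact ⟨k1.1, k2.1, k1.2, k2.2⟩

end Vale.Agent.P122
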