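import Vale.Agent.P122.Stm

namespace Vale.Agent.P122

open MeasureTheory FourierTransform Set
open scoped ENNReal
open Vale.Agent.P117 (N A S_bes S_auto S_hint)

theorem hol_pt {σ h : ℝ} (hσ : 1 < σ) (hh : h ≠ 0) (x : ℝ≥0∞) :
    x = (ENNReal.ofReal (|h| ^ ((σ - 1) / 2)) * x ^ σ) ^ (1 / σ) *
      ENNReal.ofReal (|h| ^ ((1 / 2 : ℝ) - 1)) ^ (1 - 1 / σ) := by
  have h0 : 0 < |h| := abs_pos.2 hh
  have hs : 0 < σ := by linarith
  have h1 : 0 ≤ 1 / σ := by positivity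
  have h2 : 0 ≤ 1 - 1 / σ := by
    rw [sub_nonneg, div_le_one hs]
    exact hσ.le
  rw [ENNReal.mul_rpow_of_nonneg _ _ h1, ← ENNReal.rpow_mul, mul_one_div_cancel hs.ne',
    ENNReal.rpow_one, ENNReal.ofReal_rpow_of_nonneg (by positivity) h1,
    ENNReal.ofReal_rpow_of_nonneg (by positivity) h2, mul_right_comm,
    ← ENNReal.ofReal_mul (by positivity), ← Real.rpow_mul h0.le, ← Real.rpow_mul h0.le,
    ← Real.rpow_add h0]
  have e : (σ - 1) / 2 * (1 / σ) + (1 / 2 - 1) * (1 - 1 / σ) = 0 := by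
    field_simp
    ring
  rw [e, Real.rpow_zero, ENNReal.ofReal_one, one_mul]

theorem t_hol (h_hint : S_hint) : T_hol := by
  intro σ Λ hσ hΛ
  have hs : 0 < σ := by linarith
  have h1 : 0 ≤ 1 / σ := by positivity
  have h2 : 0 ≤ 1 - 1 / σ := by
    rw [sub_nonneg, div_le_one hs]
    exact hσ.le
  refine ⟨(ENNReal.ofReal (2 / (1 / 2) * Λ ^ (1 / 2 : ℝ)) ^ (1 - 1 / σ)) ^ σ,
    ENNReal.rpow_ne_top_of_nonneg hs.le (ENNReal.rpow_ne_top_of_nonneg h2 ENNReal.ofReal_ne_top),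
    fun F hF => ?_⟩
  have m1 : Measurable fun h : ℝ => ENNReal.ofReal (|h| ^ ((σ - 1) / 2)) * F h ^ σ :=
    (ENNReal.measurable_ofReal.comp (continuous_abs.measurable.pow_const _)).mul (hF.pow_const _)
  have m2 : Measurable fun h : ℝ => ENNReal.ofReal (|h| ^ ((1 / 2 : ℝ) - 1)) :=
    ENNReal.measurable_ofReal.comp (continuous_abs.measurable.pow_const _)
  have k := ENNReal.lintegral_mul_norm_pow_le (μ := volume.restrict (Icc (-Λ) Λ))
    m1.aemeasurable m2.aemeasurable h1 h2 (by ring)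
  have e : ∫⁻ h in Icc (-Λ) Λ, F h = ∫⁻ h in Icc (-Λ) Λ,
      (ENNReal.ofReal (|h| ^ ((σ - 1) / 2)) * F h ^ σ) ^ (1 / σ) *
        ENNReal.ofReal (|h| ^ ((1 / 2 : ℝ) - 1)) ^ (1 - 1 / σ) := by
    refine lintegral_congr_ae (ae_restrict_of_ae ?_)
    have hz : ∀ᵐ h : ℝ, h ≠ 0 := by
      rw [ae_iff]
      simp
    filter_upwards [hz] with h hh
    exact hol_pt hσ hh (F h)
  rw [← e] at k
  have k2 := k.trans (mul_le_mul_right (ENNReal.rpow_le_rpow (h_hint (1 / 2) Λ (by norm_num) hΛ) h2) _)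
  refine (ENNReal.rpow_le_rpow k2 hs.le).trans (le_of_eq ?_)
  rw [ENNReal.mul_rpow_of_nonneg _ _ hs.le, ← ENNReal.rpow_mul _ (1 / σ),
    one_div_mul_cancel hs.ne', ENNReal.rpow_one, mul_comm]

end Vale.Agent.P122
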