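import Vale.Agent.P122.Stm

/-! The extension operator of a tensor product as a kernel operator in the second variable. -/

namespace Vale.Agent.P122

open MeasureTheory FourierTransform Set
open scoped ENNReal
open Vale.Agent.P117 (N A S_bes S_auto S_hint)

noncomputable def ker2_E (φ ψ : ℝ → ℝ) (x : ℝ × ℝ × ℝ) (ξ : ℝ × ℝ) : ℂ :=
  Complex.exp (2 * Real.pi * Complex.I *
    ((x.1 * ξ.1 + x.2.1 * ξ.2 + x.2.2 * (φ ξ.1 + ψ ξ.2) : ℝ) : ℂ))

theorem ker2_normE (φ ψ : ℝ → ℝ) (x : ℝ × ℝ × ℝ) (ξ : ℝ × ℝ) : ‖ker2_E φ ψ x ξ‖ = 1 := by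
  unfold ker2_E
  have h := Complex.norm_exp_ofReal_mul_I
    (2 * Real.pi * (x.1 * ξ.1 + x.2.1 * ξ.2 + x.2.2 * (φ ξ.1 + ψ ξ.2)))
  rw [← h]
  congr 2
  push_cast
  ring

theorem ker2_contE (φ ψ : ℝ → ℝ) (hφ : Continuous φ) (hψ : Continuous ψ) :
    Continuous (fun z : (ℝ × ℝ × ℝ) × (ℝ × ℝ) => ker2_E φ ψ z.1 z.2) := by
  unfold ker2_E
  fun_prop

theorem ker2_contD (φ ψ : ℝ → ℝ) (hφ : Continuous (deriv φ)) (hψ : Continuous (deriv ψ)) :
    Continuous (fun ξ : ℝ × ℝ => dens φ ψ ξ) := by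
  unfold dens
  fun_prop

theorem ker2_bd (φ ψ : ℝ → ℝ) (a b c d : ℝ) (hφ : Continuous (deriv φ))
    (hψ : Continuous (deriv ψ)) :
    ∃ M : ℝ, ∀ ξ ∈ Icc a b ×ˢ Icc c d, ‖dens φ ψ ξ‖ ≤ M :=
  (isCompact_Icc.prod isCompact_Icc).exists_bound_of_continuousOn
    (ker2_contD φ ψ hφ hψ).continuousOn

theorem t_ker2 : T_ker2 := by
  intro φ ψ a b c d hφ hψ hφ' hψ' g hg hgi
  obtain ⟨M, hM⟩ := ker2_bd φ ψ a b c d hφ' hψ'
  have hE := ker2_contE φ ψ hφ hψ
  have hD := ker2_contD φ ψ hφ' hψ'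
  refine ⟨fun x z => ∫ y in Icc a b, g y * ker2_E φ ψ x (y, z) * (dens φ ψ (y, z) : ℝ),
    ⟨?_, M * ∫ y in Icc a b, ‖g y‖, ?_⟩, ?_⟩
  · have h1 : Measurable (fun w : ((ℝ × ℝ × ℝ) × ℝ) × ℝ =>
        g w.2 * ker2_E φ ψ w.1.1 (w.2, w.1.2) * ((dens φ ψ (w.2, w.1.2) : ℝ) : ℂ)) := by
      have e1 : Continuous (fun w : ((ℝ × ℝ × ℝ) × ℝ) × ℝ => ker2_E φ ψ w.1.1 (w.2, w.1.2)) :=
        hE.comp (f := fun w : ((ℝ × ℝ × ℝ) × ℝ) × ℝ => (w.1.1, (w.2, w.1.2))) (by fun_prop)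
      have e2 : Continuous (fun w : ((ℝ × ℝ × ℝ) × ℝ) × ℝ =>
          ((dens φ ψ (w.2, w.1.2) : ℝ) : ℂ)) :=
        Complex.continuous_ofReal.comp
          (hD.comp (f := fun w : ((ℝ × ℝ × ℝ) × ℝ) × ℝ => (w.2, w.1.2)) (by fun_prop))
      exact ((hg.comp measurable_snd).mul e1.measurable).mul e2.measurable
    exact (h1.stronglyMeasurable.integral_prod_right'
      (ν := volume.restrict (Icc a b))).measurable
  · intro x z hz
    rw [← integral_const_mul]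
    refine norm_integral_le_of_norm_le (hgi.norm.const_mul M) ?_
    filter_upwards [ae_restrict_mem measurableSet_Icc] with y hy
    rw [norm_mul, norm_mul, ker2_normE, mul_one, Complex.norm_real, mul_comm]
    exact mul_le_mul_of_nonneg_right (hM (y, z) ⟨hy, hz⟩) (norm_nonneg _)
  · intro h hh hhi x
    have hint : Integrable (fun ξ : ℝ × ℝ => g ξ.1 * h ξ.2 * ker2_E φ ψ x ξ *
        ((dens φ ψ ξ : ℝ) : ℂ))
        ((volume.restrict (Icc a b)).prod (volume.restrict (Icc c d))) := by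
      have h0 : Integrable (fun ξ : ℝ × ℝ => g ξ.1 * h ξ.2)
          ((volume.restrict (Icc a b)).prod (volume.restrict (Icc c d))) :=
        Integrable.mul_prod hgi hhi
      have e1 : Continuous (fun ξ : ℝ × ℝ => ker2_E φ ψ x ξ) :=
        hE.comp (f := fun ξ : ℝ × ℝ => (x, ξ)) (by fun_prop)
      have e2 : Continuous (fun ξ : ℝ × ℝ => ((dens φ ψ ξ : ℝ) : ℂ)) :=
        Complex.continuous_ofReal.comp hD
      refine (h0.norm.const_mul M).mono' ?_ ?_
      · exact (h0.aestronglyMeasurable.mul e1.aestronglyMeasurable).mul e2.aestronglyMeasurable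
      · rw [Measure.prod_restrict]
        filter_upwards [ae_restrict_mem (measurableSet_Icc.prod measurableSet_Icc)] with ξ hξ
        rw [norm_mul, norm_mul _ (ker2_E φ ψ x ξ), ker2_normE, mul_one, Complex.norm_real,
          mul_comm]
        exact mul_le_mul_of_nonneg_right (hM ξ hξ) (norm_nonneg _)
    have h2 : Ext φ ψ a b c d (fun ξ => g ξ.1 * h ξ.2) x =
        ∫ ξ, g ξ.1 * h ξ.2 * ker2_E φ ψ x ξ * ((dens φ ψ ξ : ℝ) : ℂ)
          ∂((volume.restrict (Icc a b)).prod (volume.restrict (Icc c d))) := by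
      rw [Measure.prod_restrict]
      rfl
    rw [h2, integral_prod_symm _ hint]
    unfold TK
    refine integral_congr_ae (Filter.Eventually.of_forall fun z => ?_)
    simp only []
    rw [← integral_mul_const]
    refine integral_congr_ae (Filter.Eventually.of_forall fun y => ?_)
    simp only []
    ring

end Vale.Agent.P122
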