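import Vale.Agent.P122.Stm

namespace Vale.Agent.P122

open MeasureTheory FourierTransform Set
open scoped ENNReal
open Vale.Agent.P117 (N A S_bes S_auto S_hint)

theorem lc_meas {g : ℝ → ℂ} (hg : Measurable g) :
    Measurable fun z : ℝ × ℝ => lv g z.1 z.2 := by
  unfold lv
  refine Measurable.ite (measurableSet_lt measurable_fst (hg.comp measurable_snd).norm) ?_
    measurable_const
  exact (hg.comp measurable_snd).div
    (Complex.measurable_ofReal.comp (hg.comp measurable_snd).norm)

theorem lc_ind {E : Type} [NormedAddCommGroup E] [NormedSpace ℝ E] [CompleteSpace E] (c : E)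
    {r : ℝ} (hr : 0 ≤ r) : IntegrableOn (fun l : ℝ => if l < r then c else 0) (Ioi 0) ∧
      ∫ l in Ioi (0 : ℝ), (if l < r then c else 0) = r • c := by
  have h : (fun l : ℝ => if l < r then c else 0) = (Iio r).indicator fun _ => c := by
    funext l
    simp [indicator]
  have h2 : Iio r ∩ Ioi 0 = Ioo 0 r := by
    rw [inter_comm]
    rfl
  rw [h]
  constructor
  · rw [IntegrableOn, integrable_indicator_iff measurableSet_Iio, IntegrableOn,
      Measure.restrict_restrict measurableSet_Iio, h2]
    exact integrableOn_const (by simp)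
  · rw [integral_indicator measurableSet_Iio, Measure.restrict_restrict measurableSet_Iio, h2,
      setIntegral_const, Real.volume_real_Ioo_of_le hr, sub_zero]

theorem lc_mul (w : ℂ) : ‖w‖ • (w / (‖w‖ : ℝ)) = w := by
  by_cases h : w = 0
  · simp [h]
  · have h1 : ((‖w‖ : ℝ) : ℂ) ≠ 0 := by simpa using h
    rw [Complex.real_smul, mul_div_cancel₀ _ h1]

theorem t_lc  : T_lc := by
  intro K a b g hK hg hi
  obtain ⟨hK, M, hM⟩ := hK
  have hl := lc_meas hg
  constructor
  · have h1 : Measurable fun w : ((ℝ × ℝ × ℝ) × ℝ) × ℝ => K w.1.1 w.2 * lv g w.1.2 w.2 :=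
      (hK.comp (measurable_fst.fst.prodMk measurable_snd)).mul
        (hl.comp (measurable_fst.snd.prodMk measurable_snd))
    exact (h1.stronglyMeasurable.integral_prod_right'
      (ν := volume.restrict (Icc a b))).measurable
  · intro x
    have h1 : Measurable fun w : ℝ × ℝ => K x w.1 * lv g w.2 w.1 :=
      (hK.comp (measurable_const.prodMk measurable_fst)).mul
        (hl.comp (measurable_snd.prodMk measurable_fst))
    have h2 : ∀ y l, K x y * lv g l y =
        if l < ‖g y‖ then K x y * (g y / (‖g y‖ : ℝ)) else 0 := by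
      intro y l
      unfold lv
      split_ifs <;> simp
    have h3 : ∀ y l, ‖K x y * lv g l y‖ =
        if l < ‖g y‖ then ‖K x y * (g y / (‖g y‖ : ℝ))‖ else 0 := by
      intro y l
      rw [h2]
      split_ifs <;> simp
    have h4 : Integrable (Function.uncurry fun y l => K x y * lv g l y)
        ((volume.restrict (Icc a b)).prod (volume.restrict (Ioi (0 : ℝ)))) := by
      refine (integrable_prod_iff h1.aestronglyMeasurable).2 ⟨ae_of_all _ fun y => ?_, ?_⟩
      · simp only [h2]
        exact (lc_ind _ (norm_nonneg _)).1
      · refine (hi.norm.const_mul M).mono'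
          h1.norm.stronglyMeasurable.integral_prod_right'.aestronglyMeasurable ?_
        filter_upwards [ae_restrict_mem measurableSet_Icc] with y hy
        simp only [h3]
        rw [(lc_ind _ (norm_nonneg _)).2, norm_smul, norm_norm, norm_norm, ← norm_norm (g y),
          ← norm_smul, norm_norm, ← mul_smul_comm, lc_mul, norm_mul]
        exact mul_le_mul_of_nonneg_right (hM x y hy) (norm_nonneg _)
    unfold TK
    rw [← integral_integral_swap h4]
    refine integral_congr_ae (ae_of_all _ fun y => ?_)
    simp only [h2]
    rw [(lc_ind _ (norm_nonneg _)).2, ← mul_smul_comm, lc_mul]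

end Vale.Agent.P122
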