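import Vale.Agent.P122.Stm

namespace Vale.Agent.P122

open MeasureTheory FourierTransform Set
open scoped ENNReal
open Vale.Agent.P117 (N A S_bes S_auto S_hint)

theorem one_sec {F : ℝ → ℝ → ℂ} (h : Measurable fun z : ℝ × ℝ => F z.1 z.2) (t : ℝ) :
    Measurable (F t) := h.comp measurable_prodMk_left

theorem t_one (h_bes : S_bes) (h_bas : T_bas) (h_meas : T_meas) (h_core : T_core)
    (h_int : T_int) : T_one := by
  intro p κ a b hp3 hp4
  obtain ⟨C, hC, hcore⟩ := h_core (p - 2) κ a b (by linarith) (by linarith)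
  refine ⟨C, hC, fun φ g hφ hg => ?_⟩
  have hc : Continuous φ := continuous_iff_continuousAt.2 fun y => (hφ.2.1 y).continuousAt
  have hm : N 2 g ≠ ⊤ := (h_bas φ a b 0 g hc hg).2.2.2.1
  have k : ∀ t : ℝ, N p (V φ t g) ^ (2 : ℝ) ≤ N 2 g ^ (4 - p) * N 4 (V φ t g) ^ (p - 2) := by
    intro t
    obtain ⟨-, b2, b3, -, b5⟩ := h_bas φ a b t g hc hg
    have a1 : N 2 (V φ t g) ≤ N 2 g := by
      rw [b5, ← b3]
      exact h_bes _ b2
    have a2 := h_int p (V φ t g) (by linarith) hp4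
      (one_sec (F := fun t x => V φ t g x) (h_meas φ g hc hg.1).2.1 t)
    refine (ENNReal.rpow_le_rpow a2 zero_le_two).trans ?_
    rw [ENNReal.mul_rpow_of_nonneg _ _ zero_le_two, ← ENNReal.rpow_mul, ← ENNReal.rpow_mul,
      div_mul_cancel₀ _ two_ne_zero, div_mul_cancel₀ _ two_ne_zero]
    exact mul_le_mul_left (ENNReal.rpow_le_rpow a1 (by linarith)) _
  refine (lintegral_mono k).trans ?_
  rw [lintegral_const_mul' _ _ (ENNReal.rpow_ne_top_of_nonneg (by linarith) hm)]
  refine (mul_le_mul_right (hcore φ g hφ hg) _).trans (le_of_eq ?_)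
  rw [mul_left_comm, ← ENNReal.rpow_add_of_nonneg _ _ (by linarith) (by linarith),
    show 4 - p + (2 * (p - 2) - 1) = p - 1 by ring]

end Vale.Agent.P122
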