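import Vale.Agent.P122.Stm

namespace Vale.Agent.P122

open MeasureTheory FourierTransform Set
open scoped ENNReal
open Vale.Agent.P117 (N A S_bes S_auto S_hint)

theorem rep_norm (θ : ℝ) : ‖ex θ‖ = 1 := by
  have : 2 * Real.pi * Complex.I * (θ : ℂ) = ((2 * Real.pi * θ : ℝ) : ℂ) * Complex.I := by
    push_cast; ring
  rw [ex, this, Complex.norm_exp_ofReal_mul_I]

theorem rep_cont : Continuous ex := by
  unfold ex; fun_prop

theorem rep_bd {a b : ℝ} {G : ℝ → ℂ} (h : Bd a b G) (θ y : ℝ) :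
    ‖ex θ * G y‖ ≤ (Icc a b).indicator (fun _ => (1 : ℝ)) y := by
  rw [norm_mul, rep_norm, one_mul]
  by_cases hy : y ∈ Icc a b
  · rw [indicator_of_mem hy]; exact h.2.1 y
  · rw [indicator_of_notMem hy, h.2.2 y hy, norm_zero]

theorem rep_gw : Measurable gw := by
  unfold gw; fun_prop

theorem t_rep (h_den : T_den) (h_G : T_G) : T_rep := by
  intro φ ψ a b c d B g h hφ hψ hφ' hψ' hB h1 h2 mg bg mh bh x
  obtain ⟨m1, -, k1⟩ := h_G φ a b B g hφ' hB h1 mg bg
  obtain ⟨-, m2, k2⟩ := h_G ψ c d B h hψ' hB h2 mh bh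
  have hB0 : (B : ℂ) ≠ 0 := by exact_mod_cast (by linarith : B ≠ 0)
  let H : ℝ → ℝ × ℝ → ℂ := fun s ξ => ((B ^ 2 * gw s : ℝ) : ℂ) *
    ((ex (x.1 * ξ.1 + x.2.2 * φ ξ.1) * G1 φ a b B g s ξ.1) *
      (ex (x.2.1 * ξ.2 + x.2.2 * ψ ξ.2) * G2 ψ c d B h s ξ.2))
  have e1 : ∀ s, ((B ^ 2 * gw s : ℝ) : ℂ) *
      (V φ x.2.2 (G1 φ a b B g s) x.1 * V ψ x.2.2 (G2 ψ c d B h s) x.2.1) = ∫ ξ, H s ξ := by
    intro s
    simp only [H]
    rw [integral_const_mul, Measure.volume_eq_prod, integral_prod_mul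
      (fun y => ex (x.1 * y + x.2.2 * φ y) * G1 φ a b B g s y)
      (fun y => ex (x.2.1 * y + x.2.2 * ψ y) * G2 ψ c d B h s y)]
    rfl
  have hm : Measurable (Function.uncurry H) := by
    have a1 : Measurable fun z : ℝ × ℝ × ℝ => G1 φ a b B g z.1 z.2.1 :=
      m1.comp (measurable_fst.prodMk measurable_snd.fst)
    have a2 : Measurable fun z : ℝ × ℝ × ℝ => G2 ψ c d B h z.1 z.2.2 :=
      m2.comp (measurable_fst.prodMk measurable_snd.snd)
    have a3 : Continuous fun z : ℝ × ℝ × ℝ => ex (x.1 * z.2.1 + x.2.2 * φ z.2.1) :=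
      rep_cont.comp (by fun_prop)
    have a4 : Continuous fun z : ℝ × ℝ × ℝ => ex (x.2.1 * z.2.2 + x.2.2 * ψ z.2.2) :=
      rep_cont.comp (by fun_prop)
    have a5 : Measurable fun z : ℝ × ℝ × ℝ => ((B ^ 2 * gw z.1 : ℝ) : ℂ) :=
      Complex.measurable_ofReal.comp ((rep_gw.comp measurable_fst).const_mul _)
    exact a5.mul ((a3.measurable.mul a1).mul (a4.measurable.mul a2))
  have i1 : ∀ a b : ℝ, Integrable ((Icc a b).indicator fun _ : ℝ => (1 : ℝ)) := fun a b =>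
    (integrable_indicator_iff measurableSet_Icc).2 (integrableOn_const measure_Icc_lt_top.ne)
  have hi : Integrable (Function.uncurry H) (volume.prod volume) := by
    have i2 : Integrable (fun ξ : ℝ × ℝ => (Icc a b).indicator (fun _ : ℝ => (1 : ℝ)) ξ.1 *
        (Icc c d).indicator (fun _ : ℝ => (1 : ℝ)) ξ.2) := (i1 a b).mul_prod (i1 c d)
    refine Integrable.mono' ((h_den.1.const_mul (B ^ 2)).norm.mul_prod i2)
      hm.aestronglyMeasurable (Filter.Eventually.of_forall fun z => ?_)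
    simp only [Function.uncurry, H]
    rw [norm_mul, Complex.norm_real, norm_mul (ex _ * _)]
    refine mul_le_mul_of_nonneg_left ?_ (norm_nonneg _)
    exact mul_le_mul (rep_bd (k1 _).1 _ _) (rep_bd (k2 _).2.1 _ _) (norm_nonneg _)
      (indicator_nonneg (fun _ _ => zero_le_one) _)
  simp only [e1]
  rw [integral_integral_swap hi, Ext,
    ← integral_indicator (measurableSet_Icc.prod measurableSet_Icc)]
  refine integral_congr_ae (Filter.Eventually.of_forall fun ξ => ?_)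
  by_cases hξ : ξ ∈ Icc a b ×ˢ Icc c d
  · have e2 : ∀ s, H s ξ = (g ξ.1 * h ξ.2 * Complex.exp (2 * Real.pi * Complex.I *
        ((x.1 * ξ.1 + x.2.1 * ξ.2 + x.2.2 * (φ ξ.1 + ψ ξ.2) : ℝ) : ℂ))) *
        ((gw s * (al (deriv φ ξ.1 ^ 2) s * be (deriv ψ ξ.2 ^ 2) s) : ℝ) : ℂ) := by
      intro s
      have e3 : Complex.exp (2 * Real.pi * Complex.I *
          ((x.1 * ξ.1 + x.2.1 * ξ.2 + x.2.2 * (φ ξ.1 + ψ ξ.2) : ℝ) : ℂ)) =
          ex (x.1 * ξ.1 + x.2.2 * φ ξ.1) * ex (x.2.1 * ξ.2 + x.2.2 * ψ ξ.2) := by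
        rw [ex, ex, ← Complex.exp_add]
        congr 1
        push_cast
        ring
      simp only [H, G1, G2]
      rw [indicator_of_mem hξ.1, indicator_of_mem hξ.2, e3]
      push_cast
      field_simp
    simp only [e2]
    rw [indicator_of_mem hξ, integral_const_mul, integral_complex_ofReal,
      h_den.2 _ _ (sq_nonneg _) (sq_nonneg _)]
    rfl
  · have e2 : ∀ s, H s ξ = 0 := by
      intro s
      simp only [H]
      rcases not_and_or.1 hξ with k | k
      · rw [(k1 s).1.2.2 _ k]; simp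
      · rw [(k2 s).2.1.2.2 _ k]; simp
    simp only [e2]
    rw [indicator_of_notMem hξ, integral_zero]

end Vale.Agent.P122
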